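import Mathlib

namespace Vale.Agent.Results.P186.ThinBelowOne

open SimpleGraph

/-- A walk is geodesic if its length is the graph distance between its endpoints. -/
def IsGeodesic {V : Type*} (Γ : SimpleGraph V) {x y : V} (w : Γ.Walk x y) : Prop :=
  w.length = Γ.dist x y

/-- Every geodesic triangle of the graph (corners at vertices, sides geodesic edge paths) is
`δ`-thin: every vertex of a side is within distance `δ` of a vertex of one of the two other
sides. -/
def ThinTriangles {V : Type*} (Γ : SimpleGraph V) (δ : ℝ) : Prop :=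
  ∀ (x y z : V) (a : Γ.Walk x y) (b : Γ.Walk y z) (c : Γ.Walk x z),
    IsGeodesic Γ a → IsGeodesic Γ b → IsGeodesic Γ c →
      ∀ p ∈ a.support, ∃ q, (q ∈ b.support ∨ q ∈ c.support) ∧ (Γ.dist p q : ℝ) ≤ δ

section graph

variable {V : Type*} {Γ : SimpleGraph V}

/-- zero-thin triangles -/
def ZeroThin (Γ : SimpleGraph V) : Prop :=
  ∀ (x y z : V) (a : Γ.Walk x y) (b : Γ.Walk y z) (c : Γ.Walk x z),
    IsGeodesic Γ a → IsGeodesic Γ b → IsGeodesic Γ c →
      ∀ p ∈ a.support, p ∈ b.support ∨ p ∈ c.support

lemma zeroThin_of_thin (hconn : ∀ x y, Γ.Reachable x y) {δ : ℝ} (hδ : δ < 1)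
    (h : ThinTriangles Γ δ) : ZeroThin Γ := by
  intro x y z a b c ha hb hc p hp
  obtain ⟨q, hq, hd⟩ := h x y z a b c ha hb hc p hp
  have h1 : (Γ.dist p q : ℝ) < 1 := lt_of_le_of_lt hd hδ
  have h2 : Γ.dist p q < 1 := by exact_mod_cast h1
  have h3 : Γ.dist p q = 0 := by omega
  have h4 : p = q := (hconn p q).dist_eq_zero_iff.mp h3
  rw [h4]; exact hq

lemma step (hconn : ∀ x y, Γ.Reachable x y) (hz : ZeroThin Γ) {x u v w : V} {m : ℕ}
    (h1 : Γ.dist x u = m) (h2 : Γ.dist x v = m + 1) (huv : Γ.Adj u v) (hvw : Γ.Adj v w)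
    (huw : u ≠ w) (hnadj : ¬ Γ.Adj u w) : Γ.dist x w = m + 2 := by
  classical
  obtain ⟨a0, ha0⟩ := (hconn x u).exists_walk_length_eq_dist
  obtain ⟨c, hc⟩ := (hconn x w).exists_walk_length_eq_dist
  have ha : IsGeodesic Γ (a0.concat huv) := by
    unfold IsGeodesic
    rw [Walk.length_concat, ha0, h1, h2]
  have hb : IsGeodesic Γ (Walk.cons hvw Walk.nil) := by
    unfold IsGeodesic
    rw [dist_eq_one_iff_adj.mpr hvw]; simp
  have hp : u ∈ (a0.concat huv).support := by
    rw [Walk.support_concat]
    simp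
  have hle : Γ.dist x w ≤ m + 2 := by
    have := dist_le ((a0.concat huv).concat hvw)
    simp only [Walk.length_concat] at this
    omega
  rcases hz x v w _ _ c ha hb hc u hp with h | h
  · simp only [Walk.support_cons, Walk.support_nil, List.mem_cons, List.not_mem_nil,
      or_false] at h
    rcases h with h | h
    · exact absurd h huv.ne
    · exact absurd h huw
  · have e1 := congrArg Walk.length (c.take_spec h)
    rw [Walk.length_append] at e1
    have e2 := dist_le (c.takeUntil u h)
    have e3 := dist_le (c.dropUntil u h)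
    have e4 := (hconn u w).one_lt_dist_of_ne_of_not_adj huw hnadj
    omega

lemma diamond (hconn : ∀ x y, Γ.Reachable x y) (hz : ZeroThin Γ) {u v s t : V}
    (h1 : Γ.Adj u s) (h2 : Γ.Adj s v) (h3 : Γ.Adj u t) (h4 : Γ.Adj t v) (hst : s ≠ t)
    (huv : u ≠ v) : Γ.Adj u v := by
  by_contra hn
  have e4 := (hconn u v).one_lt_dist_of_ne_of_not_adj huv hn
  have ha : IsGeodesic Γ (Walk.cons h1 (Walk.cons h2 Walk.nil)) := by
    unfold IsGeodesic
    have := dist_le (Walk.cons h1 (Walk.cons h2 Walk.nil))
    simp only [Walk.length_cons, Walk.length_nil] at this ⊢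
    omega
  have hc : IsGeodesic Γ (Walk.cons h3 (Walk.cons h4 Walk.nil)) := by
    unfold IsGeodesic
    have := dist_le (Walk.cons h3 (Walk.cons h4 Walk.nil))
    simp only [Walk.length_cons, Walk.length_nil] at this ⊢
    omega
  have hb : IsGeodesic Γ (Walk.nil : Γ.Walk v v) := by
    unfold IsGeodesic; simp
  have := hz u v v _ _ _ ha hb hc s (by simp)
  simp only [Walk.support_cons, Walk.support_nil, List.mem_cons, List.not_mem_nil,
      or_false] at this
  rcases this with h | h | h | h
  · exact h2.ne h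
  · exact h1.ne h.symm
  · exact hst h
  · exact h2.ne h

end graph

lemma exists_split_of_not_isChain {α : Type*} {R : α → α → Prop} :
    ∀ l : List α, ¬ l.IsChain R → ∃ l1 s t l2, l = l1 ++ s :: t :: l2 ∧ ¬ R s t
  | [], h => absurd List.IsChain.nil h
  | [a], h => absurd (List.IsChain.singleton a) h
  | a :: b :: l, h => by
    by_cases hab : R a b
    · have h' : ¬ (b :: l).IsChain R := fun hc => h (List.isChain_cons_cons.mpr ⟨hab, hc⟩)
      obtain ⟨l1, s, t, l2, e, hr⟩ := exists_split_of_not_isChain (b :: l) h'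
      exact ⟨a :: l1, s, t, l2, by rw [e]; rfl, hr⟩
    · exact ⟨[], a, b, l, rfl, hab⟩

section

variable {G : Type*} [Group G] (S : Set G)

/-- the symmetrised generating set together with `1` -/
def PP : Set G := {t | t = 1 ∨ t ∈ S ∨ t⁻¹ ∈ S}

lemma one_mem_PP : (1 : G) ∈ PP S := Or.inl rfl

lemma inv_mem_PP {t : G} (h : t ∈ PP S) : t⁻¹ ∈ PP S := by
  rcases h with h | h | h
  · left; simp [h]
  · right; right; simpa using h
  · right; left; exact h

lemma inv_mem_PP_iff {t : G} : t⁻¹ ∈ PP S ↔ t ∈ PP S :=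
  ⟨fun h => by simpa using inv_mem_PP S h, inv_mem_PP S⟩

lemma adj_iff {x y : G} : (mulCayley S).Adj x y ↔ x ≠ y ∧ x⁻¹ * y ∈ PP S := by
  rw [mulCayley_adj]
  constructor
  · rintro ⟨h, h1 | h1⟩
    · exact ⟨h, Or.inr (Or.inl h1)⟩
    · exact ⟨h, Or.inr (Or.inr (by simpa using h1))⟩
  · rintro ⟨h, h1 | h1 | h1⟩
    · exact absurd (inv_mul_eq_one.mp h1) h
    · exact ⟨h, Or.inl h1⟩
    · exact ⟨h, Or.inr (by simpa using h1)⟩

lemma adj_mul {x t : G} (ht : t ∈ PP S) (h1 : t ≠ 1) : (mulCayley S).Adj x (x * t) := by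
  rw [adj_iff]
  refine ⟨fun h => h1 ?_, by simpa using ht⟩
  exact mul_eq_left.mp h.symm

lemma PP_finite (hS : S.Finite) : (PP S).Finite := by
  have : PP S = {1} ∪ S ∪ S⁻¹ := by
    ext t; simp [PP, or_assoc]
  rw [this]
  exact ((Set.finite_singleton _).union hS).union hS.inv

/-- every element is a product of a list of letters in `PP S` -/
lemma exists_list (hgen : Subgroup.closure S = ⊤) (g : G) :
    ∃ l : List G, (∀ t ∈ l, t ∈ PP S) ∧ l.prod = g := by
  have hg : g ∈ Subgroup.closure S := by rw [hgen]; trivial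
  induction hg using Subgroup.closure_induction with
  | mem x hx => exact ⟨[x], by intro t ht; simp at ht; subst ht; exact Or.inr (Or.inl hx), by simp⟩
  | one => exact ⟨[], by simp, by simp⟩
  | mul x y _ _ hx hy =>
    obtain ⟨l1, h1, rfl⟩ := hx
    obtain ⟨l2, h2, rfl⟩ := hy
    refine ⟨l1 ++ l2, ?_, by simp⟩
    intro t ht
    rcases List.mem_append.mp ht with h | h
    · exact h1 t h
    · exact h2 t h
  | inv x _ hx =>
    obtain ⟨l, h, rfl⟩ := hx
    refine ⟨(l.map (·⁻¹)).reverse, ?_, by rw [List.prod_inv_reverse]⟩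
    intro t ht
    simp only [List.mem_reverse, List.mem_map] at ht
    obtain ⟨a, ha, rfl⟩ := ht
    exact inv_mem_PP S (h a ha)

lemma reachable_mul_list (x : G) (l : List G) (hl : ∀ t ∈ l, t ∈ PP S) :
    (mulCayley S).Reachable x (x * l.prod) := by
  induction l generalizing x with
  | nil => simp
  | cons t l ih =>
    have h1 : (mulCayley S).Reachable x (x * t) := by
      by_cases h : t = 1
      · simp [h]
      · exact (adj_mul S (hl t (by simp)) h).reachable
    have h2 := ih (x * t) (fun u hu => hl u (by simp [hu]))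
    simpa [mul_assoc] using h1.trans h2

lemma reachable (hgen : Subgroup.closure S = ⊤) (x y : G) : (mulCayley S).Reachable x y := by
  obtain ⟨l, hl, h⟩ := exists_list S hgen (x⁻¹ * y)
  have := reachable_mul_list S x l hl
  rwa [h, mul_inv_cancel_left] at this

end


section words

variable {G : Type*} [Group G] (S : Set G)

lemma dist_rev (hgen : Subgroup.closure S = ⊤) (hz : ZeroThin (mulCayley S)) :
    ∀ l : List G, (∀ t ∈ l, t ∈ PP S) → (∀ t ∈ l, t ≠ 1) →
      l.IsChain (fun t s => s * t ∉ PP S) → (mulCayley S).dist 1 l.reverse.prod = l.length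
  | [], _, _, _ => by simp
  | [t], h1, h2, _ => by
    have := adj_mul S (x := 1) (h1 t (by simp)) (h2 t (by simp))
    simpa using dist_eq_one_iff_adj.mpr this
  | t :: s :: l, h1, h2, h3 => by
    rw [List.isChain_cons_cons] at h3
    have ih1 := dist_rev hgen hz (s :: l) (fun u hu => h1 u (by simp [hu]))
      (fun u hu => h2 u (by simp [hu])) h3.2
    have ih2 := dist_rev hgen hz l (fun u hu => h1 u (by simp [hu]))
      (fun u hu => h2 u (by simp [hu])) h3.2.tail
    have hs := h1 s (by simp)
    have ht := h1 t (by simp)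
    have hs1 := h2 s (by simp)
    have ht1 := h2 t (by simp)
    have e := step (reachable S hgen) hz (x := 1) (u := l.reverse.prod)
      (v := l.reverse.prod * s) (w := l.reverse.prod * s * t) (m := l.length) ih2
      (by simpa using ih1) (adj_mul S hs hs1) (adj_mul S ht ht1)
      (by
        intro h
        apply h3.1
        have : s * t = 1 := by
          have h' : l.reverse.prod * (s * t) = l.reverse.prod := by rw [← mul_assoc]; exact h.symm
          exact mul_eq_left.mp h'
        rw [this]; exact one_mem_PP S)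
      (by
        intro h
        rw [adj_iff] at h
        apply h3.1
        have := h.2
        simpa [mul_assoc] using this)
    simpa [mul_assoc] using e

lemma dist_prod (hgen : Subgroup.closure S = ⊤) (hz : ZeroThin (mulCayley S))
    (l : List G) (h1 : ∀ t ∈ l, t ∈ PP S) (h2 : ∀ t ∈ l, t ≠ 1)
    (h3 : l.IsChain (fun s t => s * t ∉ PP S)) : (mulCayley S).dist 1 l.prod = l.length := by
  have := dist_rev S hgen hz l.reverse (by simpa using h1) (by simpa using h2)
    (by rw [List.isChain_reverse]; exact h3)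
  simpa using this

variable {H : Type*} [Group H] (σ : G → H)

lemma sigma_one (hσ : ∀ s ∈ PP S, ∀ t ∈ PP S, s * t ∈ PP S → σ s * σ t = σ (s * t)) :
    σ 1 = 1 := by
  have := hσ 1 (one_mem_PP S) 1 (one_mem_PP S) (by simpa using one_mem_PP S)
  simpa using this

lemma sigma_inv (hσ : ∀ s ∈ PP S, ∀ t ∈ PP S, s * t ∈ PP S → σ s * σ t = σ (s * t))
    {t : G} (ht : t ∈ PP S) : σ t⁻¹ = (σ t)⁻¹ := by
  have := hσ t ht t⁻¹ (inv_mem_PP S ht) (by simpa using one_mem_PP S)
  rw [mul_inv_cancel, sigma_one S σ hσ] at this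
  exact eq_inv_of_mul_eq_one_right this

lemma map_prod_eq_one (hgen : Subgroup.closure S = ⊤) (hz : ZeroThin (mulCayley S))
    (hσ : ∀ s ∈ PP S, ∀ t ∈ PP S, s * t ∈ PP S → σ s * σ t = σ (s * t)) :
    ∀ (n : ℕ) (l : List G), l.length = n → (∀ t ∈ l, t ∈ PP S) → l.prod = 1 →
      (l.map σ).prod = 1 := by
  intro n
  induction n using Nat.strong_induction_on with
  | _ n ih =>
    intro l hn hl hp
    by_cases h1 : (1 : G) ∈ l
    · obtain ⟨l1, l2, rfl⟩ := List.append_of_mem h1
      have := ih (l1 ++ l2).length (by simp at hn ⊢; omega) (l1 ++ l2) rfl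
        (fun t ht => hl t (by
          rcases List.mem_append.mp ht with h | h
          · simp [h]
          · simp [h]))
        (by simpa using hp)
      simpa [sigma_one S σ hσ] using this
    · by_cases hc : l.IsChain (fun s t => s * t ∉ PP S)
      · have := dist_prod S hgen hz l hl (fun t ht h => h1 (h ▸ ht)) hc
        rw [hp] at this
        simp only [dist_self] at this
        have : l = [] := List.length_eq_zero_iff.mp this.symm
        simp [this]
      · obtain ⟨l1, s, t, l2, rfl, hr⟩ := exists_split_of_not_isChain l hc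
        have hst : s * t ∈ PP S := not_not.mp hr
        have hs : s ∈ PP S := hl s (by simp)
        have ht : t ∈ PP S := hl t (by simp)
        have := ih (l1 ++ (s * t) :: l2).length (by simp at hn ⊢; omega) (l1 ++ (s * t) :: l2) rfl
          (fun u hu => by
            rcases List.mem_append.mp hu with h | h
            · exact hl u (by simp [h])
            · rcases List.mem_cons.mp h with h | h
              · rw [h]; exact hst
              · exact hl u (by simp [h]))
          (by simpa [mul_assoc] using hp)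
        simp only [List.map_append, List.map_cons, List.prod_append, List.prod_cons] at this ⊢
        rw [← hσ s hs t ht hst] at this
        simpa [mul_assoc] using this

lemma map_inv_prod (hσ : ∀ s ∈ PP S, ∀ t ∈ PP S, s * t ∈ PP S → σ s * σ t = σ (s * t)) :
    ∀ l : List G, (∀ t ∈ l, t ∈ PP S) →
      (((l.map (·⁻¹)).reverse).map σ).prod = ((l.map σ).prod)⁻¹
  | [], _ => by simp
  | t :: l, h => by
    have ih := map_inv_prod hσ l (fun u hu => h u (by simp [hu]))
    simp only [List.map_cons, List.reverse_cons, List.map_append, List.prod_append, ih,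
      List.map_nil, List.prod_cons, List.prod_nil, mul_one, mul_inv_rev]
    rw [sigma_inv S σ hσ (h t (by simp))]

lemma map_prod_congr (hgen : Subgroup.closure S = ⊤) (hz : ZeroThin (mulCayley S))
    (hσ : ∀ s ∈ PP S, ∀ t ∈ PP S, s * t ∈ PP S → σ s * σ t = σ (s * t))
    (l1 l2 : List G) (h1 : ∀ t ∈ l1, t ∈ PP S) (h2 : ∀ t ∈ l2, t ∈ PP S)
    (h : l1.prod = l2.prod) : (l1.map σ).prod = (l2.map σ).prod := by
  have := map_prod_eq_one S σ hgen hz hσ _ (l1 ++ (l2.map (·⁻¹)).reverse) rfl
    (fun t ht => by
      rcases List.mem_append.mp ht with h | h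
      · exact h1 t h
      · simp only [List.mem_reverse, List.mem_map] at h
        obtain ⟨a, ha, rfl⟩ := h
        exact inv_mem_PP S (h2 a ha))
    (by rw [List.prod_append, ← List.prod_inv_reverse, h, mul_inv_cancel])
  rw [List.map_append, List.prod_append, map_inv_prod S σ hσ l2 h2] at this
  exact mul_inv_eq_one.mp this

/-- the universal property: a map that is multiplicative on `PP S` wherever this makes sense
extends to a homomorphism -/
lemma exists_hom (hgen : Subgroup.closure S = ⊤) (hz : ZeroThin (mulCayley S))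
    (hσ : ∀ s ∈ PP S, ∀ t ∈ PP S, s * t ∈ PP S → σ s * σ t = σ (s * t)) :
    ∃ φ : G →* H, ∀ t ∈ PP S, φ t = σ t := by
  choose w hw1 hw2 using exists_list S hgen
  refine ⟨MonoidHom.mk' (fun g => ((w g).map σ).prod) ?_, ?_⟩
  · intro a b
    have := map_prod_congr S σ hgen hz hσ (w (a * b)) (w a ++ w b) (hw1 _)
      (fun t ht => by
        rcases List.mem_append.mp ht with h | h
        · exact hw1 _ t h
        · exact hw1 _ t h)
      (by rw [List.prod_append, hw2, hw2, hw2])
    simpa using this
  · intro t ht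
    have := map_prod_congr S σ hgen hz hσ (w t) [t] (hw1 _) (by simpa using ht) (by simp [hw2])
    simpa using this

end words


section transfer

variable {α : Type*}

open Classical in
/-- send the `i`-th element of `A` to the `i`-th element of `A'` -/
noncomputable def transfer (A A' : Finset α) (x : α) : α :=
  A'.toList.getD (A.toList.idxOf x) x

open Classical in
lemma transfer_eq {A A' : Finset α} (h : A.card = A'.card) {x : α} (hx : x ∈ A) :
    ∃ (i : ℕ) (h1 : i < A.toList.length) (h2 : i < A'.toList.length),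
      A.toList[i] = x ∧ transfer A A' x = A'.toList[i] := by
  have h1 : A.toList.idxOf x < A.toList.length :=
    List.idxOf_lt_length_iff.mpr (Finset.mem_toList.mpr hx)
  have h2 : A.toList.idxOf x < A'.toList.length := by
    rw [Finset.length_toList] at h1 ⊢; omega
  refine ⟨_, h1, h2, List.getElem_idxOf h1, ?_⟩
  unfold transfer
  rw [List.getD_eq_getElem _ _ h2]

lemma transfer_mem {A A' : Finset α} (h : A.card = A'.card) {x : α} (hx : x ∈ A) :
    transfer A A' x ∈ A' := by
  obtain ⟨i, h1, h2, e1, e2⟩ := transfer_eq h hx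
  rw [e2, ← Finset.mem_toList]
  exact List.getElem_mem h2

open Classical in
lemma transfer_getElem {A A' : Finset α} {i : ℕ} (h1 : i < A.toList.length)
    (h2 : i < A'.toList.length) : transfer A A' A.toList[i] = A'.toList[i] := by
  unfold transfer
  rw [(Finset.nodup_toList A).idxOf_getElem i h1, List.getD_eq_getElem _ _ h2]

lemma transfer_transfer {A A' A'' : Finset α} (h : A.card = A'.card) (h' : A'.card = A''.card)
    {x : α} (hx : x ∈ A) : transfer A' A'' (transfer A A' x) = transfer A A'' x := by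
  obtain ⟨i, h1, h2, e1, e2⟩ := transfer_eq h hx
  have h3 : i < A''.toList.length := by
    rw [Finset.length_toList] at h2 ⊢; omega
  rw [e2, transfer_getElem h2 h3, ← e1, transfer_getElem h1 h3]

lemma transfer_self {A : Finset α} {x : α} (hx : x ∈ A) : transfer A A x = x := by
  obtain ⟨i, h1, h2, e1, e2⟩ := transfer_eq rfl hx
  rw [e2, e1]

end transfer


section action

variable {G : Type*} [Group G] (S : Set G)

/-- the block at `1` containing `t` -/
def blk (t : G) : Set G := {u | u ∈ PP S ∧ t⁻¹ * u ∈ PP S}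

lemma blk_subset (t : G) : blk S t ⊆ PP S := fun _ h => h.1

lemma self_mem_blk {t : G} (ht : t ∈ PP S) : t ∈ blk S t :=
  ⟨ht, by simpa using one_mem_PP S⟩

lemma trans_PP (hgen : Subgroup.closure S = ⊤) (hz : ZeroThin (mulCayley S)) {t u v : G}
    (ht1 : t ≠ 1) (hu : u ∈ PP S) (hv : v ∈ PP S) (htu : t⁻¹ * u ∈ PP S)
    (htv : t⁻¹ * v ∈ PP S) : u⁻¹ * v ∈ PP S := by
  have hut : u⁻¹ * t ∈ PP S := by
    have := inv_mem_PP S htu
    simpa using this
  by_cases h1 : u = v
  · simpa [h1] using one_mem_PP S
  by_cases h2 : u = 1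
  · simpa [h2] using hv
  by_cases h3 : v = 1
  · simpa [h3] using inv_mem_PP S hu
  by_cases h4 : u = t
  · rw [h4]; exact htv
  by_cases h5 : v = t
  · rw [h5]; exact hut
  have := diamond (reachable S hgen) hz (u := u) (v := v) (s := 1) (t := t)
    ((adj_iff S).mpr ⟨h2, by simpa using inv_mem_PP S hu⟩)
    ((adj_iff S).mpr ⟨fun h => h3 h.symm, by simpa using hv⟩)
    ((adj_iff S).mpr ⟨h4, hut⟩)
    ((adj_iff S).mpr ⟨fun h => h5 h.symm, htv⟩)
    (fun h => ht1 h.symm) h1
  exact ((adj_iff S).mp this).2

lemma blk_eq (hgen : Subgroup.closure S = ⊤) (hz : ZeroThin (mulCayley S)) {t u : G}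
    (ht : t ∈ PP S) (ht1 : t ≠ 1) (hu : u ∈ PP S) (hu1 : u ≠ 1) (htu : t⁻¹ * u ∈ PP S) :
    blk S t = blk S u := by
  have hut : u⁻¹ * t ∈ PP S := by
    have := inv_mem_PP S htu
    simpa using this
  ext v
  constructor
  · rintro ⟨hv, h⟩
    exact ⟨hv, trans_PP S hgen hz ht1 hu hv htu h⟩
  · rintro ⟨hv, h⟩
    exact ⟨hv, trans_PP S hgen hz hu1 ht hv hut h⟩

open Classical in
/-- points of `B` whose whole `K`-block lies in `B` -/
noncomputable def HasK (B : Finset G) (K : Set G) : Finset G :=
  B.filter (fun x => ∀ u ∈ K, x * u ∈ B)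

open Classical in
/-- the other points of `B` -/
noncomputable def MissK (B : Finset G) (K : Set G) : Finset G :=
  B.filter (fun x => ¬ ∀ u ∈ K, x * u ∈ B)

lemma mem_HasK {B : Finset G} {K : Set G} {x : G} :
    x ∈ HasK B K ↔ x ∈ B ∧ ∀ u ∈ K, x * u ∈ B := by
  classical
  simp [HasK]

lemma mem_MissK {B : Finset G} {K : Set G} {x : G} :
    x ∈ MissK B K ↔ x ∈ B ∧ x ∉ HasK B K := by
  classical
  simp only [MissK, HasK, Finset.mem_filter]
  tauto

lemma card_HasK_add (B : Finset G) (K : Set G) :
    (HasK B K).card + (MissK B K).card = B.card := by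
  classical
  exact Finset.card_filter_add_card_filter_not _

lemma HasK_mul {B : Finset G} {t x : G} (ht : t ∈ PP S) (hx : x ∈ HasK B (blk S t)) :
    x * t ∈ HasK B (blk S t⁻¹) := by
  rw [mem_HasK] at hx ⊢
  refine ⟨hx.2 t (self_mem_blk S ht), ?_⟩
  rintro w ⟨hw1, hw2⟩
  rw [mul_assoc]
  apply hx.2
  exact ⟨by simpa using hw2, by simpa using hw1⟩

lemma card_HasK (B : Finset G) {t : G} (ht : t ∈ PP S) :
    (HasK B (blk S t)).card = (HasK B (blk S t⁻¹)).card := by
  apply Finset.card_nbij' (· * t) (· * t⁻¹)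
  · intro x hx
    exact HasK_mul S ht hx
  · intro x hx
    have := HasK_mul S (inv_mem_PP S ht) hx
    simpa using this
  · intro x _
    simp
  · intro x _
    simp

lemma card_MissK (B : Finset G) {t : G} (ht : t ∈ PP S) :
    (MissK B (blk S t)).card = (MissK B (blk S t⁻¹)).card := by
  have h1 := card_HasK_add B (blk S t)
  have h2 := card_HasK_add B (blk S t⁻¹)
  have h3 := card_HasK S B ht
  omega

open Classical in
/-- the completed right multiplication by `t` on the finite set `B` -/
noncomputable def act (B : Finset G) (t x : G) : G :=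
  if x ∈ HasK B (blk S t) then x * t
  else transfer (MissK B (blk S t)) (MissK B (blk S t⁻¹)) x

lemma act_of_mem {B : Finset G} {t x : G} (h : x ∈ HasK B (blk S t)) : act S B t x = x * t := by
  simp [act, h]

lemma act_of_not_mem {B : Finset G} {t x : G} (h : x ∉ HasK B (blk S t)) :
    act S B t x = transfer (MissK B (blk S t)) (MissK B (blk S t⁻¹)) x := by
  simp [act, h]

lemma act_mem {B : Finset G} {t x : G} (ht : t ∈ PP S) (hx : x ∈ B) : act S B t x ∈ B := by
  by_cases h : x ∈ HasK B (blk S t)
  · rw [act_of_mem S h]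
    exact (mem_HasK.mp (HasK_mul S ht h)).1
  · rw [act_of_not_mem S h]
    exact (mem_MissK.mp (transfer_mem (card_MissK S B ht) (mem_MissK.mpr ⟨hx, h⟩))).1

lemma act_one {B : Finset G} {x : G} (hx : x ∈ B) : act S B 1 x = x := by
  by_cases h : x ∈ HasK B (blk S 1)
  · rw [act_of_mem S h, mul_one]
  · rw [act_of_not_mem S h, inv_one]
    exact transfer_self (mem_MissK.mpr ⟨hx, h⟩)

lemma act_inv_act {B : Finset G} {s x : G} (hs : s ∈ PP S) (hx : x ∈ B) :
    act S B s⁻¹ (act S B s x) = x := by
  by_cases h : x ∈ HasK B (blk S s)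
  · rw [act_of_mem S h, act_of_mem S (HasK_mul S hs h)]
    simp
  · have hm : x ∈ MissK B (blk S s) := mem_MissK.mpr ⟨hx, h⟩
    have h2 := transfer_mem (card_MissK S B hs) hm
    rw [act_of_not_mem S h, act_of_not_mem S (mem_MissK.mp h2).2, inv_inv,
      transfer_transfer (card_MissK S B hs) (card_MissK S B hs).symm hm]
    exact transfer_self hm

lemma act_act (hgen : Subgroup.closure S = ⊤) (hz : ZeroThin (mulCayley S)) {B : Finset G}
    {s t x : G} (hs : s ∈ PP S) (ht : t ∈ PP S) (hst : s * t ∈ PP S) (hx : x ∈ B) :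
    act S B t (act S B s x) = act S B (s * t) x := by
  by_cases hs1 : s = 1
  · rw [hs1, act_one S hx, one_mul]
  by_cases ht1 : t = 1
  · rw [ht1, act_one S (act_mem S hs hx), mul_one]
  by_cases hst1 : s * t = 1
  · have : t = s⁻¹ := eq_inv_of_mul_eq_one_right hst1
    rw [hst1, this, act_inv_act S hs hx, act_one S hx]
  have e1 : blk S (s * t) = blk S s :=
    (blk_eq S hgen hz hs hs1 hst hst1 (by simpa using ht)).symm
  have e2 : blk S t = blk S s⁻¹ :=
    (blk_eq S hgen hz (inv_mem_PP S hs) (by simpa using hs1) ht ht1 (by simpa using hst)).symm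
  have e3 : blk S (s * t)⁻¹ = blk S t⁻¹ :=
    (blk_eq S hgen hz (inv_mem_PP S ht) (by simpa using ht1) (inv_mem_PP S hst)
      (fun h => hst1 (inv_eq_one.mp h)) (by simpa using inv_mem_PP S hs)).symm
  by_cases h : x ∈ HasK B (blk S s)
  · have h2 := HasK_mul S hs h
    rw [act_of_mem S h, act_of_mem S (by rw [e2]; exact h2), act_of_mem S (by rw [e1]; exact h),
      mul_assoc]
  · have hm : x ∈ MissK B (blk S s) := mem_MissK.mpr ⟨hx, h⟩
    have h2 := transfer_mem (card_MissK S B hs) hm
    rw [act_of_not_mem S h, act_of_not_mem S (by rw [e2]; exact (mem_MissK.mp h2).2),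
      act_of_not_mem S (by rw [e1]; exact h), e1, e2, e3]
    apply transfer_transfer (card_MissK S B hs) _ hm
    rw [← e2]
    exact card_MissK S B ht

/-- the permutation of `B` attached to `t` -/
noncomputable def permB (B : Finset G) (t : G) (ht : t ∈ PP S) : Equiv.Perm B where
  toFun x := ⟨act S B t⁻¹ x, act_mem S (inv_mem_PP S ht) x.2⟩
  invFun x := ⟨act S B t x, act_mem S ht x.2⟩
  left_inv x := by
    apply Subtype.ext
    have := act_inv_act S (B := B) (inv_mem_PP S ht) x.2
    simpa using this
  right_inv x := by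
    apply Subtype.ext
    exact act_inv_act S (B := B) ht x.2

open Classical in
/-- total version of `permB` -/
noncomputable def sig (B : Finset G) (t : G) : Equiv.Perm B :=
  if ht : t ∈ PP S then permB S B t ht else 1

lemma sig_apply {B : Finset G} {t : G} (ht : t ∈ PP S) (x : B) :
    ((sig S B t x : B) : G) = act S B t⁻¹ x := by
  simp [sig, ht, permB]

lemma sig_mul (hgen : Subgroup.closure S = ⊤) (hz : ZeroThin (mulCayley S)) (B : Finset G) :
    ∀ s ∈ PP S, ∀ t ∈ PP S, s * t ∈ PP S → sig S B s * sig S B t = sig S B (s * t) := by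
  intro s hs t ht hst
  ext x
  rw [Equiv.Perm.mul_apply, sig_apply S hs, sig_apply S ht, sig_apply S hst,
    act_act S hgen hz (inv_mem_PP S ht) (inv_mem_PP S hs) (by simpa using inv_mem_PP S hst) x.2,
    mul_inv_rev]

end action


section final

variable {G : Type*} [Group G] (S : Set G)

open Classical Pointwise in
lemma mem_HasK_pow (hS : S.Finite) {n k : ℕ} (hk : k ≤ n) {x : G}
    (hx : x ∈ (PP_finite S hS).toFinset ^ k) (t : G) :
    x ∈ HasK ((PP_finite S hS).toFinset ^ (n + 1)) (blk S t) := by
  have h1 : (1 : G) ∈ (PP_finite S hS).toFinset := by simpa using one_mem_PP S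
  rw [mem_HasK]
  refine ⟨Finset.pow_subset_pow_right h1 (by omega) hx, ?_⟩
  intro u hu
  have hu' : u ∈ (PP_finite S hS).toFinset := by simpa using hu.1
  have : x * u ∈ (PP_finite S hS).toFinset ^ (k + 1) := by
    rw [pow_succ]
    exact Finset.mul_mem_mul hx hu'
  exact Finset.pow_subset_pow_right h1 (by omega) this

open Classical Pointwise in
lemma phi_apply (hS : S.Finite) (n : ℕ)
    (φ : G →* Equiv.Perm ((PP_finite S hS).toFinset ^ (n + 1) : Finset G))
    (hφ : ∀ t ∈ PP S, φ t = sig S _ t) :
    ∀ (l : List G), (∀ t ∈ l, t ∈ PP S) → ∀ (k : ℕ) (y : G),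
      y ∈ (PP_finite S hS).toFinset ^ k → k + l.length ≤ n →
      ∀ z : ((PP_finite S hS).toFinset ^ (n + 1) : Finset G), (z : G) = y * l.prod →
        ((φ l.prod z : ((PP_finite S hS).toFinset ^ (n + 1) : Finset G)) : G) = y
  | [], _, k, y, _, _, z, hz => by simpa using hz
  | t :: l, hl, k, y, hy, hk, z, hz => by
    have ht : t ∈ PP S := hl t (by simp)
    have ht' : t ∈ (PP_finite S hS).toFinset := by simpa using ht
    have hyt : y * t ∈ (PP_finite S hS).toFinset ^ (k + 1) := by
      rw [pow_succ]
      exact Finset.mul_mem_mul hy ht'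
    simp only [List.length_cons] at hk
    have ih := phi_apply hS n φ hφ l (fun u hu => hl u (by simp [hu])) (k + 1) (y * t) hyt
      (by omega) z (by rw [hz, List.prod_cons, mul_assoc])
    rw [List.prod_cons, map_mul, Equiv.Perm.mul_apply, hφ t ht, sig_apply S ht, ih,
      act_of_mem S (mem_HasK_pow S hS (by omega) hyt t⁻¹)]
    simp

open Classical Pointwise in
lemma mul_prod_mem_pow (hS : S.Finite) :
    ∀ (l : List G), (∀ t ∈ l, t ∈ PP S) → ∀ (k : ℕ) (y : G),
      y ∈ (PP_finite S hS).toFinset ^ k → y * l.prod ∈ (PP_finite S hS).toFinset ^ (k + l.length)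
  | [], _, k, y, hy => by simpa using hy
  | t :: l, hl, k, y, hy => by
    have ht : t ∈ PP S := hl t (by simp)
    have ht' : t ∈ (PP_finite S hS).toFinset := by simpa using ht
    have hyt : y * t ∈ (PP_finite S hS).toFinset ^ (k + 1) := by
      rw [pow_succ]
      exact Finset.mul_mem_mul hy ht'
    have ih := mul_prod_mem_pow hS l (fun u hu => hl u (by simp [hu])) (k + 1) (y * t) hyt
    rw [List.prod_cons, ← mul_assoc, List.length_cons]
    have e : k + (l.length + 1) = k + 1 + l.length := by omega
    rw [e]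
    exact ih

end final

/-- If a group `G` has a finite generating set `S` such that all geodesic triangles of the Cayley
graph of `(G, S)` are `δ`-thin for some `δ < 1`, then `G` is residually finite. -/
theorem result (G : Type*) [Group G] (S : Set G) (hfin : S.Finite)
    (hgen : Subgroup.closure S = ⊤) (δ : ℝ) (hδ : δ < 1)
    (hthin : ThinTriangles (SimpleGraph.mulCayley S) δ) : Group.ResiduallyFinite G := by
  classical
  have hz : ZeroThin (mulCayley S) := zeroThin_of_thin (reachable S hgen) hδ hthin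
  apply Group.residuallyFinite_of_forall_exists_finite_monoidHom
  intro g hg
  obtain ⟨l, hl, hlg⟩ := exists_list S hgen g
  open Pointwise in
  obtain ⟨φ, hφ⟩ := exists_hom S (sig S ((PP_finite S hfin).toFinset ^ (l.length + 1))) hgen hz
    (sig_mul S hgen hz _)
  refine ⟨_, inferInstance, inferInstance, φ, ?_⟩
  intro h
  have h1 : (1 : G) ∈ (PP_finite S hfin).toFinset := by simpa using one_mem_PP S
  open Pointwise in
  have hgB : g ∈ (PP_finite S hfin).toFinset ^ (l.length + 1) := by
    have : g ∈ (PP_finite S hfin).toFinset ^ l.length := by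
      have := mul_prod_mem_pow S hfin l hl 0 1 (by simp)
      simpa [hlg] using this
    exact Finset.pow_subset_pow_right h1 (by omega) this
  have := phi_apply S hfin l.length φ hφ l hl 0 1 (by simp) (by omega) ⟨g, hgB⟩ (by simp [hlg])
  rw [hlg, h] at this
  exact hg (by simpa using this)

end Vale.Agent.Results.P186.ThinBelowOne
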