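import Vale.Agent.Lib.P186.Rescale.Main2

namespace Vale.Agent.Results.P186.UniversalConstant

open SimpleGraph
open Vale.Agent.Results.P186.ThinBelowOne
open Vale.Agent.Lib.P186.Rescale

/-- (1) Every group with a finite generating set whose Cayley graph has `δ`-thin geodesic triangles (any `δ`) has
another finite generating set whose Cayley graph has `2`-thin geodesic triangles.
(2) Hence all such groups are residually finite if and only if those with thinness constant `2` are.
(3) Thinness constant `< 1` implies residual finiteness. -/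
theorem result :
    (∀ (G : Type) [Group G] (S : Set G) (δ : ℝ), S.Finite → Subgroup.closure S = ⊤ →
      ThinTriangles (mulCayley S) δ →
        ∃ S' : Set G, S'.Finite ∧ Subgroup.closure S' = ⊤ ∧ ThinTriangles (mulCayley S') 2) ∧
    ((∀ (G : Type) [Group G] (S : Set G) (δ : ℝ), S.Finite → Subgroup.closure S = ⊤ →
      ThinTriangles (mulCayley S) δ → Group.ResiduallyFinite G) ↔
     (∀ (G : Type) [Group G] (S : Set G), S.Finite → Subgroup.closure S = ⊤ →
      ThinTriangles (mulCayley S) 2 → Group.ResiduallyFinite G)) ∧
    (∀ (G : Type) [Group G] (S : Set G) (δ : ℝ), S.Finite → Subgroup.closure S = ⊤ → δ < 1 →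
      ThinTriangles (mulCayley S) δ → Group.ResiduallyFinite G) := by
  refine ⟨fun G _ S δ hfin hgen h => exists_rescale2 G S hfin hgen δ h, ⟨?_, ?_⟩, ?_⟩
  · intro H G _ S hfin hgen h
    exact H G S 2 hfin hgen h
  · intro H G _ S δ hfin hgen h
    obtain ⟨S', hfin', hgen', h'⟩ := exists_rescale2 G S hfin hgen δ h
    exact H G S' hfin' hgen' h'
  · intro G _ S δ hfin hgen hδ h
    exact Vale.Agent.Results.P186.ThinBelowOne.result G S hfin hgen δ hδ h

end Vale.Agent.Results.P186.UniversalConstant
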